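import Vale.Agent.P254.SP.H512.Byp1
import Vale.Agent.P254.SP.H649.Poi
import Vale.Agent.P254.SP.H620.Stmt

/-!
P254, row SP-BYP1 (helper512): the unconditional theorem `StmtByp1`.
-/

namespace Vale.Agent.P254.SP512

/-- **SP-BYP1**, unconditional -/
theorem stmtByp1 : Vale.Agent.P254.SP.StmtByp1 := byp1_of SP620.stmtDK SP649.stmtIBP2

end Vale.Agent.P254.SP512
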