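import Vale.Agent.P254.SP.H512.Dec

/-!
P254, row SP-BYP1 (helper512), part 3: `StmtDK → StmtIBP2 → StmtByp1`.
-/

open MeasureTheory Matrix

namespace Vale.Agent.P254.SP512

open Vale.Agent.P227.M Vale.Agent.P254.S Vale.Agent.P254.SP

variable {n : ℕ} {U : E n → Matrix (Fin n) (Fin n) ℝ} {s : E n → Fin n → ℝ}

/-- `a_e = Uᵀ (X - R) e` -/
theorem ae_eq (P : F1) (ho : ∀ z, U z * (U z).transpose = 1) {z : E n}
    (h : ∀ a, pdM a (fc U s P.r') z = U z * Matrix.of (fun i j =>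
      dd P.r' P.r'' (s z i) (s z j) * uu U s a z i j) * (U z).transpose) {e : Fin n → ℝ} {q : ℝ}
    (hq : (KK U s).mulVec e = q • e) (i : Fin n) :
    ((U z).transpose *ᵥ (XR U s P z *ᵥ e)) i = SP.ae P U s q e z i := by
  unfold XR SP.ae SP.col SP.xx
  simp only [Matrix.add_mulVec, Matrix.mulVec_add, Pi.add_apply]
  have h1 : (fc U s P.r' z * FF U s z) *ᵥ e = fc U s P.r' z *ᵥ (FF U s z *ᵥ e) :=
    (Matrix.mulVec_mulVec _ _ _).symm
  have h2 : (fc U s P.r'' z * ZZ U s z) *ᵥ e = fc U s P.r'' z *ᵥ (ZZ U s z *ᵥ e) :=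
    (Matrix.mulVec_mulVec _ _ _).symm
  have h3 : (fc U s P.r'' z * (KK U s - 1)) *ᵥ e = fc U s P.r'' z *ᵥ ((q - 1) • e) := by
    rw [← Matrix.mulVec_mulVec, Matrix.sub_mulVec, hq, Matrix.one_mulVec, sub_smul, one_smul]
  have h4 : ((U z).transpose *ᵥ ((∑ a, cm U s P.r' P.r'' a z * AA U s a) *ᵥ e)) i
      = ∑ a, kap P.r' P.r'' U s a (AA U s a *ᵥ e) z i := by
    rw [Matrix.sum_mulVec, Matrix.mulVec_sum, Finset.sum_apply]
    refine Finset.sum_congr rfl fun a _ => ?_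
    rw [← Matrix.mulVec_mulVec, frame_cm ho (h a)]
  rw [h1, h2, h3, h4, frame_fc ho, frame_fc ho, frame_fc ho, Matrix.mulVec_smul, Pi.smul_apply,
    smul_eq_mul]
  ring

/-- `b_{a,e} = Uᵀ (D_a R - Y_a) e` -/
theorem be_eq (P : F1) (ho : ∀ z, U z * (U z).transpose = 1) {z : E n}
    (h : ∀ a, pdM a (fc U s P.r) z = U z * Matrix.of (fun i j =>
      dd P.r P.r' (s z i) (s z j) * uu U s a z i j) * (U z).transpose) (e : Fin n → ℝ)
    (a i : Fin n) :
    ((U z).transpose *ᵥ (YR U s P a z *ᵥ e)) i = be P U s e a z i := by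
  unfold YR SP.be SP.col
  rw [Matrix.add_mulVec, Matrix.mulVec_add, Pi.add_apply, ← Matrix.mulVec_mulVec, frame_fc ho,
    frame_cm ho (h a)]

theorem lipF_of (hDK : StmtDK) {P : F1} {φ V : E n → ℝ} {a b M κ : ℝ}
    (hD : Dat P φ V a b M κ U s) : LipF U s := by
  intro f f' hf hf'
  obtain ⟨⟨K, hK⟩, -⟩ := hDK P n φ V a b M κ U s hD f f' hf hf'
  exact ⟨K, fun i j => (hK i j).1⟩

theorem ae_dk (hDK : StmtDK) {P : F1} {φ V : E n → ℝ} {a b M κ : ℝ}
    (hD : Dat P φ V a b M κ U s) {f f' : ℝ → ℝ} (hf : ∀ x, HasDerivAt f (f' x) x)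
    (hf' : Continuous f') :
    ∀ᵐ z : E n, ∀ k, pdM k (fc U s f) z = U z * Matrix.of (fun i j =>
      dd f f' (s z i) (s z j) * uu U s k z i j) * (U z).transpose := by
  obtain ⟨-, h⟩ := hDK P n φ V a b M κ U s hD f f' hf hf'
  rw [ae_all_iff]
  intro k
  filter_upwards [h k] with z hz
  exact hz.2

/-- **SP-BYP1** -/
theorem byp1_of (hDK : StmtDK) (hI : StmtIBP2) : StmtByp1 := by
  intro P n φ V a b M κ U s hD e q hq w hw
  have ho := hD.fr.orth
  have hL := lipF_of hDK hD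
  obtain ⟨K, hK⟩ := hw
  have hw' : ∃ K : NNReal, ∀ i, LipschitzWith K (w i) := ⟨K, fun i => (hK i).1⟩
  have h := byp1_mat hI P ho hL e w hw'
  have e0 : (fun z : E n => ((fc U s P.L z - fc U s P.r z) *ᵥ e) ⬝ᵥ fun i => w i z)
      = fun z => ∑ i, ((hess φ z).mulVec e i - (fc U s P.r z).mulVec e i) * w i z := by
    funext z
    rw [hD.fr.dec z, Matrix.sub_mulVec]
    rfl
  have e1 : Ex Q (fun z : E n => (XR U s P z *ᵥ e) ⬝ᵥ fun i => w i z)
      = Ex Q (fun z => ∑ i, SP.ae P U s q e z i * fr U w z i) := by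
    refine Ex_congr_ae ?_
    filter_upwards [ae_dk hDK hD P.hr' P.r''_cont] with z hz
    rw [← dot_frame ho]
    refine Finset.sum_congr rfl fun i _ => ?_
    rw [ae_eq P ho hz hq]
    rfl
  have e2 : Ex Q (fun z : E n => ∑ a, (YR U s P a z *ᵥ e) ⬝ᵥ fun i => pd a (w i) z)
      = Ex Q (fun z => ∑ k, ∑ i, be P U s e k z i * fr U (fun j => pd k (w j)) z i) := by
    refine Ex_congr_ae ?_
    filter_upwards [ae_dk hDK hD P.hr (cont_r' P)] with z hz
    refine Finset.sum_congr rfl fun k _ => ?_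
    rw [← dot_frame ho]
    refine Finset.sum_congr rfl fun i _ => ?_
    rw [be_eq P ho hz]
    rfl
  unfold LL
  rw [← e1, ← e2, ← h, e0]
  rfl

end Vale.Agent.P254.SP512
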