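import Vale.Agent.P254.SP.IfaceA
import Vale.Agent.P254.S.H151.Gau

/-!
P254, block SP-DEC (helper512), part 1: measurable functions of polynomial growth and the
expectation `Ex Q`.
-/

open MeasureTheory Matrix

namespace Vale.Agent.P254.SP512

open Vale.Agent.P227.M Vale.Agent.P254.S Vale.Agent.P254.SP

variable {n : ℕ}

/-- measurable functions of polynomial growth -/
def MG (f : E n → ℝ) : Prop :=
  AEStronglyMeasurable f (volume : Measure (E n)) ∧
    ∃ (B : ℝ) (k : ℕ), 0 ≤ B ∧ ∀ x, |f x| ≤ B * (1 + ‖x‖) ^ k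

theorem MG.of_gr {f : E n → ℝ} (hf : Gr f) : MG f := ⟨hf.1.aestronglyMeasurable, hf.2⟩

theorem MG.of_bound {f : E n → ℝ} (hf : AEStronglyMeasurable f (volume : Measure (E n))) {B : ℝ}
    (hB : ∀ x, |f x| ≤ B) : MG f := by
  refine ⟨hf, |B|, 0, abs_nonneg _, fun x => ?_⟩
  simpa using (hB x).trans (le_abs_self B)

theorem MG.const (c : ℝ) : MG (fun _ : E n => c) := MG.of_gr (Gr.const c)

theorem MG.coord (i : Fin n) : MG (fun x : E n => x i) := MG.of_gr (Gr.coord i)

theorem MG.add {f g : E n → ℝ} (hf : MG f) (hg : MG g) : MG (fun x => f x + g x) := by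
  obtain ⟨hfc, B, k, hB, hb⟩ := hf
  obtain ⟨hgc, D, l, hD, hd⟩ := hg
  refine ⟨hfc.add hgc, B + D, k + l, add_nonneg hB hD, fun x => ?_⟩
  have h1 := one_le_one_add_norm x
  have hk : (1 + ‖x‖) ^ k ≤ (1 + ‖x‖) ^ (k + l) := pow_le_pow_right₀ h1 (Nat.le_add_right _ _)
  have hl : (1 + ‖x‖) ^ l ≤ (1 + ‖x‖) ^ (k + l) := pow_le_pow_right₀ h1 (Nat.le_add_left _ _)
  calc |f x + g x| ≤ |f x| + |g x| := abs_add_le _ _
    _ ≤ B * (1 + ‖x‖) ^ k + D * (1 + ‖x‖) ^ l := add_le_add (hb x) (hd x)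
    _ ≤ B * (1 + ‖x‖) ^ (k + l) + D * (1 + ‖x‖) ^ (k + l) := by gcongr
    _ = _ := by ring

theorem MG.mul {f g : E n → ℝ} (hf : MG f) (hg : MG g) : MG (fun x => f x * g x) := by
  obtain ⟨hfc, B, k, hB, hb⟩ := hf
  obtain ⟨hgc, D, l, hD, hd⟩ := hg
  refine ⟨hfc.mul hgc, B * D, k + l, mul_nonneg hB hD, fun x => ?_⟩
  rw [abs_mul, pow_add]
  calc |f x| * |g x| ≤ (B * (1 + ‖x‖) ^ k) * (D * (1 + ‖x‖) ^ l) :=
        mul_le_mul (hb x) (hd x) (abs_nonneg _) (mul_nonneg hB (pow_nonneg (by positivity) _))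
    _ = _ := by ring

theorem MG.neg {f : E n → ℝ} (hf : MG f) : MG (fun x => -f x) := by
  obtain ⟨hfc, B, k, hB, hb⟩ := hf
  exact ⟨hfc.neg, B, k, hB, fun x => by rw [abs_neg]; exact hb x⟩

theorem MG.sub {f g : E n → ℝ} (hf : MG f) (hg : MG g) : MG (fun x => f x - g x) := by
  have h := hf.add hg.neg
  simpa [sub_eq_add_neg] using h

theorem MG.const_mul {f : E n → ℝ} (hf : MG f) (c : ℝ) : MG (fun x => c * f x) :=
  (MG.const c).mul hf

theorem MG.pow {f : E n → ℝ} (hf : MG f) (k : ℕ) : MG (fun x => f x ^ k) := by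
  induction k with
  | zero => simpa using MG.const (n := n) 1
  | succ k ih =>
    have h := ih.mul hf
    simpa [pow_succ] using h

theorem MG.sum {ι : Type*} (s : Finset ι) {f : ι → E n → ℝ} (hf : ∀ i ∈ s, MG (f i)) :
    MG (fun x => ∑ i ∈ s, f i x) := by
  classical
  induction s using Finset.induction_on with
  | empty => simpa using MG.const (n := n) 0
  | insert a s ha ih =>
    have h := (hf a (Finset.mem_insert_self a s)).add
      (ih fun i hi => hf i (Finset.mem_insert_of_mem hi))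
    simpa [Finset.sum_insert ha] using h

theorem MG.congr {f g : E n → ℝ} (hf : MG f) (h : ∀ x, f x = g x) : MG g := by
  have e : f = g := funext h
  rwa [← e]

theorem MG.lip {f : E n → ℝ} {K : NNReal} (hf : LipschitzWith K f) : MG f := by
  refine ⟨hf.continuous.aestronglyMeasurable, |f 0| + K, 1, by positivity, fun x => ?_⟩
  have h1 : |f x - f 0| ≤ K * ‖x‖ := by
    have := hf.dist_le_mul x 0
    rwa [Real.dist_eq, dist_zero_right] at this
  have h2 : |f x| ≤ |f 0| + |f x - f 0| := by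
    have := abs_add_le (f 0) (f x - f 0)
    rwa [add_sub_cancel] at this
  have h3 : 0 ≤ ‖x‖ := norm_nonneg x
  have h4 := abs_nonneg (f 0)
  have h5 : (0 : ℝ) ≤ K := K.2
  rw [pow_one]
  nlinarith

theorem MG.pd {f : E n → ℝ} {K : NNReal} (hf : LipschitzWith K f) (a : Fin n) :
    MG (pd a f) :=
  MG.of_bound (B := K) (measurable_fderiv_apply_const ℝ f (ei a)).aestronglyMeasurable
    fun x => (abs_pd_le_norm f x a).trans (norm_fderiv_le_of_lipschitz ℝ hf)

theorem MG.integrable {f : E n → ℝ} (hf : MG f) : Integrable f (S151.gm n) := by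
  obtain ⟨hfc, B, k, hB, hb⟩ := hf
  apply S151.integrable_gm
  have hg : Gr (fun x : E n => B * (1 + ‖x‖) ^ k) :=
    (((Gr.const 1).add Gr.norm).pow k).const_mul B
  refine (S151.regQ.integrable_gr hg).mono'
    (hfc.mul (Real.continuous_exp.comp S151.cont_Q.neg).aestronglyMeasurable)
    (ae_of_all _ fun x => ?_)
  rw [norm_mul, Real.norm_eq_abs, Real.norm_eq_abs, Real.abs_exp]
  exact mul_le_mul_of_nonneg_right (hb x) (Real.exp_pos _).le

/-! ### linearity of `Ex Q` -/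

theorem Ex_add {f g : E n → ℝ} (hf : MG f) (hg : MG g) :
    Ex Q (fun z => f z + g z) = Ex Q f + Ex Q g := by
  rw [S151.Ex_eq, S151.Ex_eq, S151.Ex_eq]
  exact integral_add hf.integrable hg.integrable

theorem Ex_sub {f g : E n → ℝ} (hf : MG f) (hg : MG g) :
    Ex Q (fun z => f z - g z) = Ex Q f - Ex Q g := by
  rw [S151.Ex_eq, S151.Ex_eq, S151.Ex_eq]
  exact integral_sub hf.integrable hg.integrable

theorem Ex_neg (f : E n → ℝ) : Ex Q (fun z => -f z) = -Ex Q f := by
  rw [S151.Ex_eq, S151.Ex_eq]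
  exact integral_neg f

theorem Ex_const_mul (c : ℝ) (f : E n → ℝ) : Ex Q (fun z => c * f z) = c * Ex Q f := by
  rw [S151.Ex_eq, S151.Ex_eq]
  exact integral_const_mul c f

theorem Ex_mul_const (c : ℝ) (f : E n → ℝ) : Ex Q (fun z => f z * c) = Ex Q f * c := by
  rw [S151.Ex_eq, S151.Ex_eq]
  exact integral_mul_const c f

theorem Ex_const (c : ℝ) : Ex Q (fun _ : E n => c) = c := by
  rw [S151.Ex_eq, integral_const, probReal_univ, one_smul]

theorem Ex_sum {ι : Type*} (s : Finset ι) {f : ι → E n → ℝ} (hf : ∀ i ∈ s, MG (f i)) :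
    Ex Q (fun z => ∑ i ∈ s, f i z) = ∑ i ∈ s, Ex Q (f i) := by
  simp only [S151.Ex_eq]
  exact integral_finsetSum s fun i hi => (hf i hi).integrable

theorem gm_ac : S151.gm n ≪ (volume : Measure (E n)) := withDensity_absolutelyContinuous _ _

theorem Ex_congr_ae {f g : E n → ℝ} (h : ∀ᵐ z, f z = g z) : Ex Q f = Ex Q g := by
  rw [S151.Ex_eq, S151.Ex_eq]
  exact integral_congr_ae (gm_ac.ae_le h)

theorem Ex_mono_ae {f g : E n → ℝ} (hf : MG f) (hg : MG g) (h : ∀ᵐ z, f z ≤ g z) :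
    Ex Q f ≤ Ex Q g := by
  rw [S151.Ex_eq, S151.Ex_eq]
  exact integral_mono_ae hf.integrable hg.integrable (gm_ac.ae_le h)

/-- matrix fields with entries in `MG` -/
def MMG (A : E n → Matrix (Fin n) (Fin n) ℝ) : Prop := ∀ i j, MG fun z => A z i j

/-- vector fields with components in `MG` -/
def VMG (v : E n → Fin n → ℝ) : Prop := ∀ i, MG fun z => v z i

theorem MMG.const (A : Matrix (Fin n) (Fin n) ℝ) : MMG (fun _ : E n => A) := fun _ _ => MG.const _

theorem VMG.const (v : Fin n → ℝ) : VMG (fun _ : E n => v) := fun _ => MG.const _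

theorem MMG.add {A B : E n → Matrix (Fin n) (Fin n) ℝ} (hA : MMG A) (hB : MMG B) :
    MMG fun z => A z + B z := fun i j => (hA i j).add (hB i j)

theorem MMG.sub {A B : E n → Matrix (Fin n) (Fin n) ℝ} (hA : MMG A) (hB : MMG B) :
    MMG fun z => A z - B z := fun i j => (hA i j).sub (hB i j)

theorem MMG.neg {A : E n → Matrix (Fin n) (Fin n) ℝ} (hA : MMG A) :
    MMG fun z => -A z := fun i j => (hA i j).neg

theorem MMG.mul {A B : E n → Matrix (Fin n) (Fin n) ℝ} (hA : MMG A) (hB : MMG B) :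
    MMG fun z => A z * B z := fun i j => by
  simp only [mul_apply]
  exact MG.sum _ fun k _ => (hA i k).mul (hB k j)

theorem MMG.smul {c : E n → ℝ} {A : E n → Matrix (Fin n) (Fin n) ℝ} (hc : MG c) (hA : MMG A) :
    MMG fun z => c z • A z := fun i j => hc.mul (hA i j)

theorem MMG.transpose {A : E n → Matrix (Fin n) (Fin n) ℝ} (hA : MMG A) :
    MMG fun z => (A z).transpose := fun i j => hA j i

theorem MMG.sum {ι : Type*} (s : Finset ι) {A : ι → E n → Matrix (Fin n) (Fin n) ℝ}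
    (hA : ∀ k ∈ s, MMG (A k)) : MMG fun z => ∑ k ∈ s, A k z := fun i j => by
  simp only [Matrix.sum_apply]
  exact MG.sum _ fun k hk => hA k hk i j

theorem MMG.mulVec {A : E n → Matrix (Fin n) (Fin n) ℝ} {v : E n → Fin n → ℝ} (hA : MMG A)
    (hv : VMG v) : VMG fun z => A z *ᵥ v z := fun i => by
  simp only [Matrix.mulVec, dotProduct]
  exact MG.sum _ fun k _ => (hA i k).mul (hv k)

theorem VMG.dot {v w : E n → Fin n → ℝ} (hv : VMG v) (hw : VMG w) :
    MG fun z => v z ⬝ᵥ w z := by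
  simp only [dotProduct]
  exact MG.sum _ fun k _ => (hv k).mul (hw k)

theorem MMG.pdM {A : E n → Matrix (Fin n) (Fin n) ℝ}
    (hA : ∃ K : NNReal, ∀ i j, LipschitzWith K fun z => A z i j) (a : Fin n) :
    MMG (pdM a A) := fun i j => by
  obtain ⟨K, hK⟩ := hA
  exact MG.pd (hK i j) a

theorem MMG.of_lip {A : E n → Matrix (Fin n) (Fin n) ℝ}
    (hA : ∃ K : NNReal, ∀ i j, LipschitzWith K fun z => A z i j) : MMG A := fun i j => by
  obtain ⟨K, hK⟩ := hA
  exact MG.lip (hK i j)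

end Vale.Agent.P254.SP512
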