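import Vale.Agent.P254.SP.IfaceB
import Vale.Agent.P254.SP.H512.MG

/-!
P254, block SP-DEC / BYP1 (helper512), part 2: integration by parts for matrix fields and the exact
decomposition of `L(w)` with the trial field `Y_a = r'(G) A_a` (row `StmtByp1` of `SP/IfaceB.lean`).
-/

open MeasureTheory Matrix

namespace Vale.Agent.P254.SP512

open Vale.Agent.P227.M Vale.Agent.P254.S Vale.Agent.P254.SP

variable {n : ℕ}

/-- for every `C¹` function `f` the entries of `f(G)` are Lipschitz -/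
def LipF (U : E n → Matrix (Fin n) (Fin n) ℝ) (s : E n → Fin n → ℝ) : Prop :=
  ∀ f f' : ℝ → ℝ, (∀ x, HasDerivAt f (f' x) x) → Continuous f' →
    ∃ K : NNReal, ∀ i j, LipschitzWith K fun z => fc U s f z i j

variable (U : E n → Matrix (Fin n) (Fin n) ℝ) (s : E n → Fin n → ℝ)

/-- the (left) commutator field `∂_a f(G) - f'(G) ∂_a G` -/
noncomputable def cm (f f' : ℝ → ℝ) (a : Fin n) (z : E n) : Matrix (Fin n) (Fin n) ℝ :=
  pdM a (fc U s f) z - fc U s f' z * pdM a (GG U s) z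

/-- the matrix `X - R` -/
noncomputable def XR (P : F1) (z : E n) : Matrix (Fin n) (Fin n) ℝ :=
  fc U s P.r' z * FF U s z + fc U s P.r'' z * (KK U s - 1) + fc U s P.r'' z * ZZ U s z
    + ∑ a, cm U s P.r' P.r'' a z * AA U s a

/-- the matrix `D_a R - Y_a` -/
noncomputable def YR (P : F1) (a : Fin n) (z : E n) : Matrix (Fin n) (Fin n) ℝ :=
  fc U s P.r' z * Fa U s a z + cm U s P.r P.r' a z

variable {U s}

/-! ### algebra of the functional calculus -/

theorem fc_add (f g : ℝ → ℝ) (z : E n) :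
    fc U s (fun x => f x + g x) z = fc U s f z + fc U s g z := by
  unfold fc
  rw [← Matrix.add_mul, ← Matrix.mul_add, Matrix.diagonal_add]

theorem fc_sub (f g : ℝ → ℝ) (z : E n) :
    fc U s (fun x => f x - g x) z = fc U s f z - fc U s g z := by
  unfold fc
  rw [← Matrix.sub_mul, ← Matrix.mul_sub, Matrix.diagonal_sub]

theorem orth' (ho : ∀ z, U z * (U z).transpose = 1) (z : E n) : (U z).transpose * U z = 1 :=
  mul_eq_one_comm.1 (ho z)

theorem fc_mul (ho : ∀ z, U z * (U z).transpose = 1) (f g : ℝ → ℝ) (z : E n) :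
    fc U s (fun x => f x * g x) z = fc U s f z * fc U s g z := by
  unfold fc
  symm
  calc U z * Matrix.diagonal (fun k => f (s z k)) * (U z).transpose
        * (U z * Matrix.diagonal (fun k => g (s z k)) * (U z).transpose)
      = U z * Matrix.diagonal (fun k => f (s z k)) * ((U z).transpose * U z)
        * Matrix.diagonal (fun k => g (s z k)) * (U z).transpose := by
        simp only [Matrix.mul_assoc]
    _ = _ := by
      rw [orth' ho, Matrix.mul_one, Matrix.mul_assoc (U z), Matrix.diagonal_mul_diagonal]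

theorem GG_eq (z : E n) : GG U s z = fc U s (fun x => x) z := rfl

/-- `M - R = S G - r''(G)` -/
theorem L_sub_r (P : F1) (ho : ∀ z, U z * (U z).transpose = 1) (z : E n) :
    fc U s P.L z - fc U s P.r z = fc U s P.r' z * GG U s z - fc U s P.r'' z := by
  rw [GG_eq, ← fc_mul ho, ← fc_sub, ← fc_sub]
  congr 1
  funext x
  have := P.model2 x
  linarith

/-! ### measurability -/

theorem LipF.mmg (hL : LipF U s) {f f' : ℝ → ℝ} (hf : ∀ x, HasDerivAt f (f' x) x)
    (hc : Continuous f') : MMG (fc U s f) := MMG.of_lip (hL f f' hf hc)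

theorem LipF.id (hL : LipF U s) : ∃ K : NNReal, ∀ i j, LipschitzWith K fun z => GG U s z i j :=
  hL (fun x => x) (fun _ => 1) (fun x => hasDerivAt_id x) continuous_const

theorem LipF.mmg_G (hL : LipF U s) : MMG (GG U s) := MMG.of_lip hL.id

theorem LipF.mmg_dG (hL : LipF U s) (a : Fin n) : MMG (pdM a (GG U s)) := MMG.pdM hL.id a

theorem LipF.mmg_pd (hL : LipF U s) {f f' : ℝ → ℝ} (hf : ∀ x, HasDerivAt f (f' x) x)
    (hc : Continuous f') (a : Fin n) : MMG (pdM a (fc U s f)) := MMG.pdM (hL f f' hf hc) a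

theorem cont_r' (P : F1) : Continuous P.r' :=
  continuous_iff_continuousAt.2 fun x => (P.hr' x).continuousAt

theorem mmg_L (P : F1) (hL : LipF U s) : MMG (fc U s P.L) := hL.mmg P.hL P.L'_cont

theorem mmg_r (P : F1) (hL : LipF U s) : MMG (fc U s P.r) := hL.mmg P.hr (cont_r' P)

theorem mmg_r' (P : F1) (hL : LipF U s) : MMG (fc U s P.r') := hL.mmg P.hr' P.r''_cont

theorem mmg_r'' (P : F1) (ho : ∀ z, U z * (U z).transpose = 1) (hL : LipF U s) :
    MMG (fc U s P.r'') := by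
  have h : fc U s P.r'' = fun z => fc U s P.r' z * GG U s z - (fc U s P.L z - fc U s P.r z) := by
    funext z
    rw [L_sub_r P ho]
    abel
  rw [h]
  exact ((mmg_r' P hL).mul hL.mmg_G).sub ((mmg_L P hL).sub (mmg_r P hL))

theorem mmg_FF (hL : LipF U s) : MMG (FF U s) :=
  hL.mmg_G.sub (MMG.sum _ fun a _ => MMG.smul (MG.coord a) (MMG.const _))

theorem mmg_Fa (hL : LipF U s) (a : Fin n) : MMG (Fa U s a) := (hL.mmg_dG a).sub (MMG.const _)

theorem mmg_ZZ (hL : LipF U s) : MMG (ZZ U s) :=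
  MMG.sum _ fun a _ => (mmg_Fa hL a).mul (MMG.const _)

theorem mmg_cm (hL : LipF U s) {f f' : ℝ → ℝ} (hf : ∀ x, HasDerivAt f (f' x) x)
    (hc : Continuous f') (hf' : MMG (fc U s f')) (a : Fin n) : MMG (cm U s f f' a) :=
  (hL.mmg_pd hf hc a).sub (hf'.mul (hL.mmg_dG a))

theorem mmg_XR (P : F1) (ho : ∀ z, U z * (U z).transpose = 1) (hL : LipF U s) :
    MMG (XR U s P) :=
  ((((mmg_r' P hL).mul (mmg_FF hL)).add ((mmg_r'' P ho hL).mul (MMG.const _))).add
    ((mmg_r'' P ho hL).mul (mmg_ZZ hL))).add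
    (MMG.sum _ fun a _ => (mmg_cm hL P.hr' P.r''_cont (mmg_r'' P ho hL) a).mul (MMG.const _))

theorem mmg_YR (P : F1) (hL : LipF U s) (a : Fin n) : MMG (YR U s P a) :=
  ((mmg_r' P hL).mul (mmg_Fa hL a)).add (mmg_cm hL P.hr (cont_r' P) (mmg_r' P hL) a)

/-! ### integration by parts -/

/-- integration by parts for the matrix field `B_a` and the vector field `w` -/
theorem ibp_mat (hI : StmtIBP2) (B : Fin n → E n → Matrix (Fin n) (Fin n) ℝ)
    (hB : ∀ a, ∃ K : NNReal, ∀ i j, LipschitzWith K fun z => B a z i j) (e : Fin n → Fin n → ℝ)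
    (w : Fin n → E n → ℝ) (hw : ∃ K : NNReal, ∀ i, LipschitzWith K (w i)) :
    Ex Q (fun z => ∑ a, z a * ((B a z *ᵥ e a) ⬝ᵥ fun i => w i z)) =
      Ex Q (fun z => ∑ a, (((pdM a (B a) z *ᵥ e a) ⬝ᵥ fun i => w i z)
        + ((B a z *ᵥ e a) ⬝ᵥ fun i => pd a (w i) z))) := by
  obtain ⟨K, hK⟩ := hw
  have hw1 : ∀ i, MG (w i) := fun i => MG.lip (hK i)
  have hw2 : ∀ a i, MG (pd a (w i)) := fun a i => MG.pd (hK i) a
  have hB1 : ∀ a, MMG (B a) := fun a => MMG.of_lip (hB a)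
  have hB2 : ∀ a, MMG (pdM a (B a)) := fun a => MMG.pdM (hB a) a
  have key : ∀ a i j, Ex Q (fun z => z a * (B a z i j * w i z)) =
      Ex Q (fun z => pdM a (B a) z i j * w i z + B a z i j * pd a (w i) z) := by
    intro a i j
    obtain ⟨K2, hK2⟩ := hB a
    have h := hI n (fun z => B a z i j) (w i) (max K K2) ((hK2 i j).weaken (le_max_right _ _))
      ((hK i).weaken (le_max_left _ _)) a
    exact h
  have e1 : (fun z : E n => ∑ a, z a * ((B a z *ᵥ e a) ⬝ᵥ fun i => w i z)) =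
      fun z => ∑ a, ∑ i, ∑ j, e a j * (z a * (B a z i j * w i z)) := by
    funext z
    refine Finset.sum_congr rfl fun a _ => ?_
    simp only [dotProduct, Matrix.mulVec, Finset.mul_sum, Finset.sum_mul]
    refine Finset.sum_congr rfl fun i _ => Finset.sum_congr rfl fun j _ => ?_
    ring
  have e2 : (fun z : E n => ∑ a, (((pdM a (B a) z *ᵥ e a) ⬝ᵥ fun i => w i z)
        + ((B a z *ᵥ e a) ⬝ᵥ fun i => pd a (w i) z))) =
      fun z => ∑ a, ∑ i, ∑ j, e a j *
        (pdM a (B a) z i j * w i z + B a z i j * pd a (w i) z) := by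
    funext z
    refine Finset.sum_congr rfl fun a _ => ?_
    simp only [dotProduct, Matrix.mulVec, Finset.sum_mul]
    rw [← Finset.sum_add_distrib]
    refine Finset.sum_congr rfl fun i _ => ?_
    rw [← Finset.sum_add_distrib]
    refine Finset.sum_congr rfl fun j _ => ?_
    ring
  have m1 : ∀ a i j, MG fun z : E n => e a j * (z a * (B a z i j * w i z)) := fun a i j =>
    MG.const_mul ((MG.coord a).mul ((hB1 a i j).mul (hw1 i))) _
  have m2 : ∀ a i j, MG fun z : E n => e a j *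
      (pdM a (B a) z i j * w i z + B a z i j * pd a (w i) z) := fun a i j =>
    MG.const_mul (((hB2 a i j).mul (hw1 i)).add ((hB1 a i j).mul (hw2 a i))) _
  rw [e1, e2, Ex_sum _ fun a _ => MG.sum _ fun i _ => MG.sum _ fun j _ => m1 a i j,
    Ex_sum _ fun a _ => MG.sum _ fun i _ => MG.sum _ fun j _ => m2 a i j]
  refine Finset.sum_congr rfl fun a _ => ?_
  rw [Ex_sum _ fun i _ => MG.sum _ fun j _ => m1 a i j,
    Ex_sum _ fun i _ => MG.sum _ fun j _ => m2 a i j]
  refine Finset.sum_congr rfl fun i _ => ?_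
  rw [Ex_sum _ fun j _ => m1 a i j, Ex_sum _ fun j _ => m2 a i j]
  refine Finset.sum_congr rfl fun j _ => ?_
  rw [Ex_const_mul, Ex_const_mul, key]

/-! ### the exact decomposition, matrix form -/

/-- pointwise algebra -/
theorem point (P : F1) (ho : ∀ z, U z * (U z).transpose = 1) (e w : Fin n → ℝ)
    (dw : Fin n → Fin n → ℝ) (z : E n) :
    (((fc U s P.L z - fc U s P.r z) *ᵥ e) ⬝ᵥ w) - ∑ a, (pdM a (fc U s P.r) z *ᵥ e) ⬝ᵥ dw a
      = (((XR U s P z *ᵥ e) ⬝ᵥ w) - ∑ a, (YR U s P a z *ᵥ e) ⬝ᵥ dw a)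
        + (∑ a, z a * ((fc U s P.r' z *ᵥ (AA U s a *ᵥ e)) ⬝ᵥ w)
          - ∑ a, (((pdM a (fc U s P.r') z *ᵥ (AA U s a *ᵥ e)) ⬝ᵥ w)
            + ((fc U s P.r' z *ᵥ (AA U s a *ᵥ e)) ⬝ᵥ dw a))) := by
  have hG : GG U s z = FF U s z + ∑ a, z a • AA U s a := by
    unfold FF
    abel
  have hY : ∀ a, pdM a (fc U s P.r) z = YR U s P a z + fc U s P.r' z * AA U s a := by
    intro a
    unfold YR cm Fa
    rw [Matrix.mul_sub]
    abel
  have hX : fc U s P.L z - fc U s P.r z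
      = XR U s P z + (∑ a, z a • (fc U s P.r' z * AA U s a)
        - ∑ a, pdM a (fc U s P.r') z * AA U s a) := by
    rw [L_sub_r P ho, hG]
    have h1 : fc U s P.r'' z * (KK U s - 1) + fc U s P.r'' z * ZZ U s z
        + ∑ a, cm U s P.r' P.r'' a z * AA U s a
        = ∑ a, pdM a (fc U s P.r') z * AA U s a - fc U s P.r'' z := by
      have h2 : KK U s + ZZ U s z = ∑ a, pdM a (GG U s) z * AA U s a := by
        unfold KK ZZ Fa
        rw [← Finset.sum_add_distrib]
        refine Finset.sum_congr rfl fun a _ => ?_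
        rw [Matrix.sub_mul]
        abel
      have h3 : ∑ a, cm U s P.r' P.r'' a z * AA U s a
          = ∑ a, pdM a (fc U s P.r') z * AA U s a
            - fc U s P.r'' z * ∑ a, pdM a (GG U s) z * AA U s a := by
        rw [Finset.mul_sum, ← Finset.sum_sub_distrib]
        refine Finset.sum_congr rfl fun a _ => ?_
        unfold cm
        rw [Matrix.sub_mul, Matrix.mul_assoc]
      rw [h3, ← h2, Matrix.mul_sub, Matrix.mul_add, Matrix.mul_one]
      abel
    have h4 : fc U s P.r' z * (FF U s z + ∑ a, z a • AA U s a)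
        = fc U s P.r' z * FF U s z + ∑ a, z a • (fc U s P.r' z * AA U s a) := by
      rw [Matrix.mul_add, Finset.mul_sum]
      congr 1
      refine Finset.sum_congr rfl fun a _ => ?_
      rw [Matrix.mul_smul]
    rw [h4]
    unfold XR
    rw [add_assoc (fc U s P.r' z * FF U s z), add_assoc (fc U s P.r' z * FF U s z), h1]
    abel
  have h5 : ∀ a, pdM a (fc U s P.r) z *ᵥ e
      = YR U s P a z *ᵥ e + fc U s P.r' z *ᵥ (AA U s a *ᵥ e) := by
    intro a
    rw [hY, Matrix.add_mulVec, Matrix.mulVec_mulVec]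
  rw [hX, Matrix.add_mulVec, Matrix.sub_mulVec, add_dotProduct, sub_dotProduct]
  simp only [h5, add_dotProduct, Finset.sum_add_distrib]
  have h6 : ((∑ a, z a • (fc U s P.r' z * AA U s a)) *ᵥ e) ⬝ᵥ w
      = ∑ a, z a * ((fc U s P.r' z *ᵥ (AA U s a *ᵥ e)) ⬝ᵥ w) := by
    rw [Matrix.sum_mulVec, sum_dotProduct]
    refine Finset.sum_congr rfl fun a _ => ?_
    rw [Matrix.smul_mulVec, smul_dotProduct, Matrix.mulVec_mulVec, smul_eq_mul]
  have h7 : ((∑ a, pdM a (fc U s P.r') z * AA U s a) *ᵥ e) ⬝ᵥ w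
      = ∑ a, (pdM a (fc U s P.r') z *ᵥ (AA U s a *ᵥ e)) ⬝ᵥ w := by
    rw [Matrix.sum_mulVec, sum_dotProduct]
    refine Finset.sum_congr rfl fun a _ => ?_
    rw [Matrix.mulVec_mulVec]
  rw [h6, h7]
  ring

/-- **BYP1** in matrix form -/
theorem byp1_mat (hI : StmtIBP2) (P : F1) (ho : ∀ z, U z * (U z).transpose = 1)
    (hL : LipF U s) (e : Fin n → ℝ) (w : Fin n → E n → ℝ)
    (hw : ∃ K : NNReal, ∀ i, LipschitzWith K (w i)) :
    Ex Q (fun z => ((fc U s P.L z - fc U s P.r z) *ᵥ e) ⬝ᵥ fun i => w i z)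
      - Ex Q (fun z => ∑ a, (pdM a (fc U s P.r) z *ᵥ e) ⬝ᵥ fun i => pd a (w i) z)
    = Ex Q (fun z => (XR U s P z *ᵥ e) ⬝ᵥ fun i => w i z)
      - Ex Q (fun z => ∑ a, (YR U s P a z *ᵥ e) ⬝ᵥ fun i => pd a (w i) z) := by
  have hw' := hw
  obtain ⟨K, hK⟩ := hw
  have vw : VMG fun z i => w i z := fun i => MG.lip (hK i)
  have vdw : ∀ a, VMG fun z i => pd a (w i) z := fun a i => MG.pd (hK i) a
  have hS := mmg_r' P hL
  have m1 : MG fun z => ((fc U s P.L z - fc U s P.r z) *ᵥ e) ⬝ᵥ fun i => w i z :=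
    (((mmg_L P hL).sub (mmg_r P hL)).mulVec (VMG.const e)).dot vw
  have m2 : MG fun z => ∑ a, (pdM a (fc U s P.r) z *ᵥ e) ⬝ᵥ fun i => pd a (w i) z :=
    MG.sum _ fun a _ => ((hL.mmg_pd P.hr (cont_r' P) a).mulVec (VMG.const e)).dot (vdw a)
  have m3 : MG fun z => (XR U s P z *ᵥ e) ⬝ᵥ fun i => w i z :=
    ((mmg_XR P ho hL).mulVec (VMG.const e)).dot vw
  have m4 : MG fun z => ∑ a, (YR U s P a z *ᵥ e) ⬝ᵥ fun i => pd a (w i) z :=
    MG.sum _ fun a _ => ((mmg_YR P hL a).mulVec (VMG.const e)).dot (vdw a)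
  have m5 : MG fun z => ∑ a, z a * ((fc U s P.r' z *ᵥ (AA U s a *ᵥ e)) ⬝ᵥ fun i => w i z) :=
    MG.sum _ fun a _ => (MG.coord a).mul ((hS.mulVec (VMG.const _)).dot vw)
  have m6 : MG fun z => ∑ a, (((pdM a (fc U s P.r') z *ᵥ (AA U s a *ᵥ e)) ⬝ᵥ fun i => w i z)
      + ((fc U s P.r' z *ᵥ (AA U s a *ᵥ e)) ⬝ᵥ fun i => pd a (w i) z)) :=
    MG.sum _ fun a _ => (((hL.mmg_pd P.hr' P.r''_cont a).mulVec (VMG.const _)).dot vw).add
      ((hS.mulVec (VMG.const _)).dot (vdw a))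
  have h := ibp_mat hI (fun _ => fc U s P.r') (fun _ => hL _ _ P.hr' P.r''_cont)
    (fun a => AA U s a *ᵥ e) w hw'
  rw [← Ex_sub m1 m2, ← Ex_sub m3 m4]
  have e1 : (fun z : E n => (((fc U s P.L z - fc U s P.r z) *ᵥ e) ⬝ᵥ fun i => w i z)
      - ∑ a, (pdM a (fc U s P.r) z *ᵥ e) ⬝ᵥ fun i => pd a (w i) z)
      = fun z => (((XR U s P z *ᵥ e) ⬝ᵥ fun i => w i z)
        - ∑ a, (YR U s P a z *ᵥ e) ⬝ᵥ fun i => pd a (w i) z)
        + (∑ a, z a * ((fc U s P.r' z *ᵥ (AA U s a *ᵥ e)) ⬝ᵥ fun i => w i z)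
          - ∑ a, (((pdM a (fc U s P.r') z *ᵥ (AA U s a *ᵥ e)) ⬝ᵥ fun i => w i z)
            + ((fc U s P.r' z *ᵥ (AA U s a *ᵥ e)) ⬝ᵥ fun i => pd a (w i) z))) := by
    funext z
    exact point P ho e (fun i => w i z) (fun a i => pd a (w i) z) z
  rw [e1, Ex_add (m3.sub m4) (m5.sub m6), Ex_sub m5 m6, h, sub_self, add_zero]

/-! ### the frame -/

/-- frame coordinates preserve the scalar product -/
theorem dot_frame (ho : ∀ z, U z * (U z).transpose = 1) (x y : Fin n → ℝ) (z : E n) :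
    ∑ i, ((U z).transpose *ᵥ x) i * ((U z).transpose *ᵥ y) i = x ⬝ᵥ y := by
  have h : ((U z).transpose *ᵥ x) ⬝ᵥ ((U z).transpose *ᵥ y) = x ⬝ᵥ y := by
    rw [Matrix.dotProduct_mulVec, Matrix.vecMul_transpose, Matrix.mulVec_mulVec, ho,
      Matrix.one_mulVec]
  exact h

/-- left multiplication by `f(G)` in the frame -/
theorem frame_fc (ho : ∀ z, U z * (U z).transpose = 1) (f : ℝ → ℝ) (x : Fin n → ℝ) (z : E n)
    (i : Fin n) :
    ((U z).transpose *ᵥ (fc U s f z *ᵥ x)) i = f (s z i) * ((U z).transpose *ᵥ x) i := by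
  have h : (U z).transpose *ᵥ (fc U s f z *ᵥ x)
      = Matrix.diagonal (fun k => f (s z k)) *ᵥ ((U z).transpose *ᵥ x) := by
    unfold fc
    rw [Matrix.mulVec_mulVec, Matrix.mulVec_mulVec, ← Matrix.mul_assoc, ← Matrix.mul_assoc,
      orth' ho, Matrix.one_mul]
  rw [h, Matrix.mulVec_diagonal]

/-- the commutator field in the frame -/
theorem frame_cm (ho : ∀ z, U z * (U z).transpose = 1) {f f' : ℝ → ℝ} {a : Fin n} {z : E n}
    (h : pdM a (fc U s f) z = U z * Matrix.of (fun i j => dd f f' (s z i) (s z j) * uu U s a z i j)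
      * (U z).transpose) (v : Fin n → ℝ) (i : Fin n) :
    ((U z).transpose *ᵥ (cm U s f f' a z *ᵥ v)) i = kap f f' U s a v z i := by
  have h1 : fc U s f' z * pdM a (GG U s) z
      = U z * (Matrix.diagonal (fun k => f' (s z k)) * uu U s a z) * (U z).transpose := by
    unfold fc uu
    have h2 : U z * (Matrix.diagonal (fun k => f' (s z k)) *
        ((U z).transpose * pdM a (GG U s) z * U z)) * (U z).transpose
        = U z * Matrix.diagonal (fun k => f' (s z k)) * (U z).transpose * pdM a (GG U s) z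
          * (U z * (U z).transpose) := by
      simp only [Matrix.mul_assoc]
    rw [h2, ho, Matrix.mul_one]
  have h3 : cm U s f f' a z = U z * Matrix.of (fun i j =>
      (dd f f' (s z i) (s z j) - f' (s z i)) * uu U s a z i j) * (U z).transpose := by
    unfold cm
    rw [h, h1, ← Matrix.sub_mul, ← Matrix.mul_sub]
    congr 2
    ext i j
    rw [Matrix.sub_apply, Matrix.of_apply, Matrix.diagonal_mul, Matrix.of_apply]
    ring
  rw [h3, Matrix.mulVec_mulVec, ← Matrix.mul_assoc, ← Matrix.mul_assoc, orth' ho,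
    Matrix.one_mul, ← Matrix.mulVec_mulVec]
  unfold kap xx
  rw [Matrix.mulVec, dotProduct]
  rfl

end Vale.Agent.P254.SP512
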